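import Vale.Agent.P290.H610.Pencil

/-! Criteria for noncritical points and isolated points of joint fibres of a pencil
(helper610, package RHO of P290). -/

open Set Filter Metric
open scoped Manifold ContDiff Topology

namespace Vale.Agent.P290.H610

open Vale.Agent.P290 (C2)
open Vale.Agent.P290.K (P1)

section chart

variable {X : Type} [TopologicalSpace X] [ChartedSpace C2 X] [IsManifold 𝓘(ℂ, C2) 1 X]

/-- holomorphic functions from charts -/
theorem md_of_chart {f : X → ℂ} {x : X} {e : OpenPartialHomeomorph X C2} (he : e ∈ atlas C2 X)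
    (hx : x ∈ e.source) (h : DifferentiableAt ℂ (fun v => f (e.symm v)) (e x)) :
    MDifferentiableAt 𝓘(ℂ, C2) 𝓘(ℂ) f x := by
  have h1 : MDifferentiableAt 𝓘(ℂ, C2) 𝓘(ℂ, C2) e x := mdifferentiableAt_atlas he hx
  refine (h.mdifferentiableAt.comp x h1).congr_of_eventuallyEq ?_
  filter_upwards [e.open_source.mem_nhds hx] with y hy
  simp only [Function.comp_apply, e.left_inv hy]

theorem md_of_charts {f : X → ℂ} {U : Set X} (hU : IsOpen U)
    (h : ∀ e ∈ atlas C2 X, DifferentiableOn ℂ (f ∘ e.symm) (e.target ∩ e.symm ⁻¹' U)) {x : X}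
    (hx : x ∈ U) : MDifferentiableAt 𝓘(ℂ, C2) 𝓘(ℂ) f x := by
  have he := chart_mem_atlas C2 x
  have hxs : x ∈ (chartAt C2 x).source := mem_chart_source C2 x
  refine md_of_chart he hxs ?_
  refine (h _ he).differentiableAt ?_
  refine ((chartAt C2 x).isOpen_inter_preimage_symm hU).mem_nhds ⟨mem_chart_target C2 x, ?_⟩
  rw [mem_preimage, (chartAt C2 x).left_inv hxs]
  exact hx

/-- the differential in a chart -/
theorem mfderiv_ne_zero_of_chart {f : X → ℂ} {x : X} {e : OpenPartialHomeomorph X C2}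
    (he : e ∈ atlas C2 X) (hx : x ∈ e.source) (hf : MDifferentiableAt 𝓘(ℂ, C2) 𝓘(ℂ) f x)
    (h : fderiv ℂ (fun v => f (e.symm v)) (e x) ≠ 0) : mfderiv 𝓘(ℂ, C2) 𝓘(ℂ) f x ≠ 0 := by
  intro h0
  apply h
  have hes : e.symm (e x) = x := e.left_inv hx
  have hm : MDifferentiableAt 𝓘(ℂ, C2) 𝓘(ℂ, C2) e.symm (e x) :=
    mdifferentiableAt_atlas_symm he (e.map_source hx)
  have hf' : MDifferentiableAt 𝓘(ℂ, C2) 𝓘(ℂ) f (e.symm (e x)) := by rw [hes]; exact hf
  have h1 := mfderiv_comp (e x) hf' hm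
  have h2 : mfderiv 𝓘(ℂ, C2) 𝓘(ℂ) f (e.symm (e x)) = 0 := by rw [hes]; exact h0
  rw [h2] at h1
  have h3 : mfderiv 𝓘(ℂ, C2) 𝓘(ℂ) (f ∘ e.symm) (e x) = 0 := by
    rw [h1]; exact ContinuousLinearMap.zero_comp _
  rw [mfderiv_eq_fderiv] at h3
  exact h3

end chart

/-- a simple zero along a curve germ -/
theorem mfderiv_ne_zero_of_curve {X : Type} [TopologicalSpace X] [ChartedSpace C2 X] {f : X → ℂ}
    {γ : ℂ → X} {z : ℂ} (hf : MDifferentiableAt 𝓘(ℂ, C2) 𝓘(ℂ) f (γ z))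
    (hγ : MDifferentiableAt 𝓘(ℂ) 𝓘(ℂ, C2) γ z) (h : deriv (fun s => f (γ s)) z ≠ 0) :
    mfderiv 𝓘(ℂ, C2) 𝓘(ℂ) f (γ z) ≠ 0 := by
  intro h0
  apply h
  have h1 := mfderiv_comp z hf hγ
  rw [h0] at h1
  have h3 : mfderiv 𝓘(ℂ) 𝓘(ℂ) (f ∘ γ) z = 0 := by
    rw [h1]; exact ContinuousLinearMap.zero_comp _
  rw [mfderiv_eq_fderiv] at h3
  have h4 : fderiv ℂ (fun s => f (γ s)) z = 0 := h3
  rw [← fderiv_apply_one_eq_deriv, h4]
  rfl

namespace Pencil

variable {X : Type} [TopologicalSpace X] [ChartedSpace C2 X] (P : Pencil X)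

theorem mdifferentiableAt_w {i : P.ι} (x : X) {y : X} (hy : y ∈ P.U i) :
    MDifferentiableAt 𝓘(ℂ, C2) 𝓘(ℂ) (P.w i x) y := by
  have h1 := P.s_hol i y hy
  have h2 := P.t_hol i y hy
  have h3 : MDifferentiableAt 𝓘(ℂ, C2) 𝓘(ℂ, ℂ × ℂ) (fun y => (P.s i y, P.t i y)) y :=
    h1.prodMk_space h2
  have h4 : DifferentiableAt ℂ (fun p : ℂ × ℂ => p.1 * P.t i x - P.s i x * p.2)
      (P.s i y, P.t i y) :=
    (differentiableAt_fst.mul_const _).sub (differentiableAt_snd.const_mul _)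
  exact h4.mdifferentiableAt.comp y h3

/-- A point at which the local equation of the fibre of `rho` has nonzero differential, or which is
noncritical for `π`, and which is isolated in the joint fibre: the data needed by the Oka
criterion. -/
theorem exists_data {Y : All.K3} (P : Pencil Y.X) {B : Type} (π : Y.X → B) {y : Y.X} {i : P.ι}
    (hy : y ∈ P.U i) {U : Set Y.X} (hU : U ∈ 𝓝 y)
    (hiso : ∀ y' ∈ U, π y' = π y → P.w i y y' = 0 → y' = y) :
    ∃ (R : All.RS) (ρ' : Y.X → R.C), (∀ y, All.HolC ρ' y) ∧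
      (mfderiv 𝓘(ℂ, C2) 𝓘(ℂ) (P.w i y) y ≠ 0 → ¬ All.Critical ρ' y) ∧
      ∃ U ∈ 𝓝 y, ∀ y' ∈ U, π y' = π y → ρ' y' = ρ' y → y' = y := by
  have m1 : IsManifold 𝓘(ℂ, C2) ω Y.X := Y.manifold
  have m2 : IsManifold 𝓘(ℂ, C2) 1 Y.X := IsManifold.of_le (n := ω) le_top
  refine ⟨sphere, P.rho, P.holC_rho, P.not_critical_rho hy, U ∩ P.U i,
    inter_mem hU ((P.isOpen i).mem_nhds hy), fun y' hy' h1 h2 => ?_⟩
  exact hiso y' hy'.1 h1 ((P.rho_eq_rho_iff hy hy'.2).1 h2)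

end Pencil

end Vale.Agent.P290.H610
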