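import Vale.Agent.P290.Bdl.B1
import Vale.Agent.P290.K.AllDefs

/-! Pencils without base points on a complex surface: the holomorphic map to the Riemann sphere
(helper610, package RHO of P290). -/

open Set Filter Metric
open scoped Manifold ContDiff Topology

namespace Vale.Agent.P290.H610

open Vale.Agent.P290 (C2)
open Vale.Agent.P290.K (P1)

/-- The Riemann sphere as a Riemann surface. -/
noncomputable def sphere : All.RS where
  C := P1
  manifold := inferInstance
  t2 := inferInstance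

/-- A pencil without base points on the complex surface `X`, given by local pairs of holomorphic
functions without common zeros and with the same ratio. -/
structure Pencil (X : Type) [TopologicalSpace X] [ChartedSpace C2 X] where
  ι : Type
  U : ι → Set X
  s : ι → X → ℂ
  t : ι → X → ℂ
  isOpen : ∀ i, IsOpen (U i)
  cover : ∀ x, ∃ i, x ∈ U i
  s_hol : ∀ i, ∀ x ∈ U i, MDifferentiableAt 𝓘(ℂ, C2) 𝓘(ℂ) (s i) x
  t_hol : ∀ i, ∀ x ∈ U i, MDifferentiableAt 𝓘(ℂ, C2) 𝓘(ℂ) (t i) x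
  ne : ∀ i, ∀ x ∈ U i, s i x ≠ 0 ∨ t i x ≠ 0
  rel : ∀ i j, ∀ x ∈ U i, x ∈ U j → s i x * t j x = s j x * t i x

section
variable {X C : Type} [TopologicalSpace X] [ChartedSpace C2 X] [TopologicalSpace C]
  [ChartedSpace ℂ C]

/-- a holomorphic map is holomorphic in the sense of `All` -/
theorem holC_of_md {π : X → C} {x : X} (h : MDifferentiableAt 𝓘(ℂ, C2) 𝓘(ℂ) π x) :
    All.HolC π x := by
  obtain ⟨h1, h2⟩ := (mdifferentiableAt_iff π x).1 h
  simp only [writtenInExtChartAt, mfld_simps] at h2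
  exact ⟨h1, differentiableWithinAt_univ.1 h2⟩

/-- at a critical point the differential vanishes -/
theorem mfderiv_eq_zero_of_critical {π : X → C} {x : X}
    (hπ : MDifferentiableAt 𝓘(ℂ, C2) 𝓘(ℂ) π x) (h : All.Critical π x) :
    mfderiv 𝓘(ℂ, C2) 𝓘(ℂ) π x = 0 := by
  obtain ⟨h1, h2⟩ := h _ _ _ rfl rfl rfl
  have h4 := hπ.hasMFDerivAt.2
  simp only [writtenInExtChartAt, mfld_simps] at h4
  have h5 : HasFDerivAt (fun z => chartAt ℂ (π x) (π ((chartAt C2 x).symm z)))
      (mfderiv 𝓘(ℂ, C2) 𝓘(ℂ) π x : C2 →L[ℂ] ℂ) (chartAt C2 x x) := hasFDerivWithinAt_univ.1 h4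
  have e1 : (mfderiv 𝓘(ℂ, C2) 𝓘(ℂ) π x : C2 →L[ℂ] ℂ) (1, 0) = 0 := by
    have h6 : HasDerivAt (fun s : ℂ => ((s, (chartAt C2 x x).2) : C2)) (1, 0)
        (chartAt C2 x x).1 := (hasDerivAt_id _).prodMk (hasDerivAt_const _ _)
    have h7 := HasFDerivAt.comp_hasDerivAt (f := fun s : ℂ => ((s, (chartAt C2 x x).2) : C2))
      (chartAt C2 x x).1 h5 h6
    exact h7.deriv.symm.trans h1
  have e2 : (mfderiv 𝓘(ℂ, C2) 𝓘(ℂ) π x : C2 →L[ℂ] ℂ) (0, 1) = 0 := by
    have h6 : HasDerivAt (fun s : ℂ => (((chartAt C2 x x).1, s) : C2)) (0, 1)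
        (chartAt C2 x x).2 := (hasDerivAt_const _ _).prodMk (hasDerivAt_id _)
    have h7 := HasFDerivAt.comp_hasDerivAt (f := fun s : ℂ => (((chartAt C2 x x).1, s) : C2))
      (chartAt C2 x x).2 h5 h6
    exact h7.deriv.symm.trans h2
  have key : ∀ D : C2 →L[ℂ] ℂ, D (1, 0) = 0 → D (0, 1) = 0 → D = 0 := by
    intro D d1 d2
    refine ContinuousLinearMap.ext fun v => ?_
    obtain ⟨a, b⟩ := v
    have e3 : ((a, b) : C2) = a • ((1, 0) : C2) + b • ((0, 1) : C2) := by
      ext <;> simp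
    rw [e3, map_add, map_smul, map_smul, d1, d2]
    simp
  exact key _ e1 e2

theorem not_critical_of_mfderiv {π : X → C} {x : X}
    (hπ : MDifferentiableAt 𝓘(ℂ, C2) 𝓘(ℂ) π x) (h : mfderiv 𝓘(ℂ, C2) 𝓘(ℂ) π x ≠ 0) :
    ¬ All.Critical π x := fun h' => h (mfderiv_eq_zero_of_critical hπ h')

end

namespace Pencil

variable {X : Type} [TopologicalSpace X] [ChartedSpace C2 X] (P : Pencil X)

/-- an index with `x ∈ U i` -/
noncomputable def idx (x : X) : P.ι := (P.cover x).choose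

theorem idx_mem (x : X) : x ∈ P.U (P.idx x) := (P.cover x).choose_spec

/-- The map to the Riemann sphere defined by the pencil. -/
noncomputable def rho (x : X) : P1 := P1.mk (P.s (P.idx x) x) (P.t (P.idx x) x)

theorem rho_eq {i : P.ι} {x : X} (hx : x ∈ P.U i) : P.rho x = P1.mk (P.s i x) (P.t i x) :=
  (P1.mk_eq_iff (P.ne _ x (P.idx_mem x)) (P.ne i x hx)).2 (P.rel _ _ x (P.idx_mem x) hx)

theorem rho_eventuallyEq {i : P.ι} {x : X} (hx : x ∈ P.U i) :
    P.rho =ᶠ[𝓝 x] fun y => P1.mk (P.s i y) (P.t i y) := by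
  filter_upwards [(P.isOpen i).mem_nhds hx] with y hy
  exact P.rho_eq hy

/-- the local equation at `x` of the fibre of `rho` through `x` -/
noncomputable def w (i : P.ι) (x : X) (y : X) : ℂ := P.s i y * P.t i x - P.s i x * P.t i y

theorem w_self (i : P.ι) (x : X) : P.w i x x = 0 := by
  simp only [w]; ring

/-- The fibre of `rho` through `x` is, locally, the zero set of `w`. -/
theorem rho_eq_rho_iff {i : P.ι} {x y : X} (hx : x ∈ P.U i) (hy : y ∈ P.U i) :
    P.rho y = P.rho x ↔ P.w i x y = 0 := by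
  rw [P.rho_eq hx, P.rho_eq hy, P1.mk_eq_iff (P.ne i y hy) (P.ne i x hx), w, sub_eq_zero]

theorem differentiableAt_symm {f : X → ℂ} {x : X}
    (h : MDifferentiableAt 𝓘(ℂ, C2) 𝓘(ℂ) f x) :
    DifferentiableAt ℂ (fun v => f ((chartAt C2 x).symm v)) (chartAt C2 x x) := by
  obtain ⟨-, h2⟩ := (mdifferentiableAt_iff f x).1 h
  simp only [writtenInExtChartAt, mfld_simps] at h2
  exact differentiableWithinAt_univ.1 h2

variable [IsManifold 𝓘(ℂ, C2) 1 X]

/-- `rho` is holomorphic. -/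
theorem mdifferentiableAt_rho (x : X) : MDifferentiableAt 𝓘(ℂ, C2) 𝓘(ℂ) P.rho x := by
  obtain ⟨i, hi⟩ := P.cover x
  refine MDifferentiableAt.congr_of_eventuallyEq ?_ (P.rho_eventuallyEq hi)
  have h1 := differentiableAt_symm (P.s_hol i x hi)
  have h2 := differentiableAt_symm (P.t_hol i x hi)
  have hxs : x ∈ (chartAt C2 x).source := mem_chart_source C2 x
  have h3 : MDifferentiableAt 𝓘(ℂ, C2) 𝓘(ℂ)
      (fun v => P1.mk (P.s i ((chartAt C2 x).symm v)) (P.t i ((chartAt C2 x).symm v)))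
      (chartAt C2 x x) := by
    refine P1.mdifferentiableAt_mk h1 h2 ?_
    rw [(chartAt C2 x).left_inv hxs]
    exact P.ne i x hi
  have h4 : MDifferentiableAt 𝓘(ℂ, C2) 𝓘(ℂ, C2) (chartAt C2 x) x :=
    mdifferentiableAt_atlas (chart_mem_atlas C2 x) hxs
  refine (h3.comp x h4).congr_of_eventuallyEq ?_
  filter_upwards [(chartAt C2 x).open_source.mem_nhds hxs] with y hy
  simp only [Function.comp_apply, (chartAt C2 x).left_inv hy]

theorem mdifferentiable_rho : MDifferentiable 𝓘(ℂ, C2) 𝓘(ℂ) P.rho := P.mdifferentiableAt_rho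

theorem holC_rho (x : X) : All.HolC (C := sphere.C) P.rho x := holC_of_md (P.mdifferentiableAt_rho x)

theorem continuous_rho : Continuous P.rho := P.mdifferentiable_rho.continuous

/-- If the local equation `w` of the fibre of `rho` through `x` has nonzero differential at `x`,
then `x` is not a critical point of `rho`. -/
theorem mfderiv_rho_ne_zero {i : P.ι} {x : X} (hx : x ∈ P.U i)
    (h : mfderiv 𝓘(ℂ, C2) 𝓘(ℂ) (P.w i x) x ≠ 0) : mfderiv 𝓘(ℂ, C2) 𝓘(ℂ) P.rho x ≠ 0 := by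
  intro h0
  apply h
  have h1 := differentiableAt_symm (P.s_hol i x hx)
  have h2 := differentiableAt_symm (P.t_hol i x hx)
  have hxs : x ∈ (chartAt C2 x).source := mem_chart_source C2 x
  have hxt : chartAt C2 x x ∈ (chartAt C2 x).target := mem_chart_target C2 x
  set e := chartAt C2 x with he
  set a : C2 → ℂ := fun v => P.s i (e.symm v) with ha
  set b : C2 → ℂ := fun v => P.t i (e.symm v) with hb
  have hm : MDifferentiableAt 𝓘(ℂ, C2) 𝓘(ℂ, C2) e.symm (e x) :=
    mdifferentiableAt_atlas_symm (chart_mem_atlas C2 x) hxt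
  have hes : e.symm (e x) = x := e.left_inv hxs
  have h3 : mfderiv 𝓘(ℂ, C2) 𝓘(ℂ) (fun v => P1.mk (a v) (b v)) (e x) = 0 := by
    have h4 : (fun v => P1.mk (a v) (b v)) =ᶠ[𝓝 (e x)] P.rho ∘ e.symm := by
      have h5 : ∀ᶠ v in 𝓝 (e x), e.symm v ∈ P.U i := by
        have := e.continuousAt_symm hxt
        exact this.eventually ((P.isOpen i).mem_nhds (by rw [hes]; exact hx))
      filter_upwards [h5] with v hv
      exact (P.rho_eq hv).symm
    rw [h4.mfderiv_eq]
    have h5 : MDifferentiableAt 𝓘(ℂ, C2) 𝓘(ℂ) P.rho (e.symm (e x)) := P.mdifferentiableAt_rho _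
    rw [mfderiv_comp (e x) h5 hm]
    have h6 : mfderiv 𝓘(ℂ, C2) 𝓘(ℂ) P.rho (e.symm (e x)) = 0 := by rw [hes]; exact h0
    rw [h6]
    exact ContinuousLinearMap.zero_comp _
  have hne : a (e x) ≠ 0 ∨ b (e x) ≠ 0 := by
    simp only [ha, hb, hes]; exact P.ne i x hx
  have h7 : ∀ v : C2, fderiv ℂ a (e x) v * b (e x) - a (e x) * fderiv ℂ b (e x) v = 0 := by
    intro v
    by_contra hv
    exact P1.mfderiv_mk_ne_zero h1 h2 hne v hv h3
  -- the differential of `w` in the chart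
  have hw : MDifferentiableAt 𝓘(ℂ, C2) 𝓘(ℂ) (P.w i x) x := by
    have k1 : MDifferentiableAt 𝓘(ℂ, C2) 𝓘(ℂ) (fun y => a (e y) * P.t i x - P.s i x * b (e y))
        x := by
      have k2 : DifferentiableAt ℂ (fun v => a v * P.t i x - P.s i x * b v) (e x) :=
        (h1.mul_const _).sub (h2.const_mul _)
      exact k2.mdifferentiableAt.comp x (mdifferentiableAt_atlas (chart_mem_atlas C2 x) hxs)
    refine k1.congr_of_eventuallyEq ?_
    filter_upwards [e.open_source.mem_nhds hxs] with y hy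
    simp only [w, ha, hb, e.left_inv hy]
  have h8 := hw.hasMFDerivAt.2
  simp only [writtenInExtChartAt, mfld_simps] at h8
  have h9 : HasFDerivAt (fun v => P.w i x (e.symm v))
      (mfderiv 𝓘(ℂ, C2) 𝓘(ℂ) (P.w i x) x : C2 →L[ℂ] ℂ) (e x) := hasFDerivWithinAt_univ.1 h8
  have h10 : HasFDerivAt (fun v => a v * P.t i x - P.s i x * b v)
      ((P.t i x) • fderiv ℂ a (e x) - (P.s i x) • fderiv ℂ b (e x)) (e x) :=
    (h1.hasFDerivAt.mul_const _).sub (h2.hasFDerivAt.const_mul _)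
  have h11 : (mfderiv 𝓘(ℂ, C2) 𝓘(ℂ) (P.w i x) x : C2 →L[ℂ] ℂ) =
      (P.t i x) • fderiv ℂ a (e x) - (P.s i x) • fderiv ℂ b (e x) :=
    HasFDerivAt.unique (𝕜 := ℂ) (E := ℂ × ℂ) (F := ℂ) h9 h10
  have h12 : (P.t i x) • fderiv ℂ a (e x) - (P.s i x) • fderiv ℂ b (e x) = (0 : C2 →L[ℂ] ℂ) := by
    refine ContinuousLinearMap.ext fun v => ?_
    have h12 := h7 v
    have e1 : a (e x) = P.s i x := by simp only [ha, hes]
    have e2 : b (e x) = P.t i x := by simp only [hb, hes]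
    rw [e1, e2] at h12
    simp only [sub_apply, smul_apply, smul_eq_mul, zero_apply]
    linear_combination h12
  exact h11.trans h12

theorem not_critical_rho {i : P.ι} {x : X} (hx : x ∈ P.U i)
    (h : mfderiv 𝓘(ℂ, C2) 𝓘(ℂ) (P.w i x) x ≠ 0) : ¬ All.Critical (C := sphere.C) P.rho x :=
  not_critical_of_mfderiv (P.mdifferentiableAt_rho x) (P.mfderiv_rho_ne_zero hx h)

end Pencil

end Vale.Agent.P290.H610
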