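import Vale.Agent.P290.H362.Iface
import Vale.Agent.P290.H867.XbK3
import Vale.Agent.P290.H436.RegVal

/-!
# P290, TW-GEO (helper610): the geometric half of the record `Tw` for the surface `X_b`
-/

open Set Filter Topology
open scoped Manifold ContDiff

namespace Vale.Agent.P290.H610

open Vale.Agent.P267 Vale.Agent.P290.H445 Vale.Agent.P290.H867
open Vale.Agent.P290.K (P1)

/-! ### maps between K3 surfaces in the charts with values in `Fin 2 → ℂ` -/

theorem md_fl_of_hol {X Y : All.K3} {f : X.X → Y.X} {x : X.X} (h : All.Hol f x) :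
    MDifferentiableAt 𝓘(ℂ, FL.C2) 𝓘(ℂ, FL.C2) f x := by
  rw [mdifferentiableAt_iff]
  refine ⟨h.1, ?_⟩
  simp only [writtenInExtChartAt, mfld_simps, differentiableWithinAt_univ]
  change DifferentiableAt ℂ (φ ∘ (fun z => chartAt C2 (f x) (f ((chartAt C2 x).symm z))) ∘ φ.symm)
    (φ (chartAt C2 x x))
  refine φ.differentiableAt.comp _ (DifferentiableAt.comp _ ?_ φ.symm.differentiableAt)
  rw [ContinuousLinearEquiv.symm_apply_apply]
  exact h.2

theorem contMDiff_of_charts {X Y : All.K3} {f : X.X → Y.X} (hc : Continuous f)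
    (h : ∀ x, ContDiffAt ℝ ∞ (fun z => chartAt C2 (f x) (f ((chartAt C2 x).symm z)))
      (chartAt C2 x x)) : ContMDiff 𝓘(ℝ, FL.C2) 𝓘(ℝ, FL.C2) ∞ f := by
  intro x
  rw [contMDiffAt_iff]
  refine ⟨hc.continuousAt, ?_⟩
  simp only [mfld_simps, contDiffWithinAt_univ]
  change ContDiffAt ℝ ∞ ((φ : C2 → FL.C2) ∘
    (fun z => chartAt C2 (f x) (f ((chartAt C2 x).symm z))) ∘ (φ.symm : FL.C2 → C2))
    (φ (chartAt C2 x x))
  refine ((φ.contDiff (n := ∞)).restrict_scalars ℝ).contDiffAt.comp _ ?_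
  refine ContDiffAt.comp (𝕜 := ℝ) (φ (chartAt C2 x x)) ?_
    ((φ.symm.contDiff (n := ∞)).restrict_scalars ℝ).contDiffAt
  rw [ContinuousLinearEquiv.symm_apply_apply]
  exact h x

/-- a twist preserves regular points of the fibration -/
theorem critical_of_twist {X Y : All.K3} (T : All.Twist X Y) {a : T.A} {y : Y.X}
    (hy : T.ρ y ∈ T.O a) (h : All.Critical T.ρ y) : All.Critical T.π (T.g a y) := by
  obtain ⟨-, h1, h2⟩ := T.g_hol a y hy
  have hx : T.π (T.g a y) ∈ T.O a := by rw [h1]; exact hy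
  set x := T.g a y with hxdef
  have i1 : IsManifold 𝓘(ℂ, C2) 1 X.X := IsManifold.of_le (n := ω) le_top
  have i2 : IsManifold 𝓘(ℂ, C2) 1 Y.X := IsManifold.of_le (n := ω) le_top
  rw [H310.critical_iff_mfderiv (T.π_hol x)]
  rw [H310.critical_iff_mfderiv (T.ρ_hol y)] at h
  have h3 : T.π =ᶠ[𝓝 x] T.ρ ∘ T.h a := by
    filter_upwards [(T.π_hol x).1 ((T.isOpen a).mem_nhds hx)] with x' hx'
    exact ((T.h_hol a x' hx').2.1).symm
  have h4 : MDifferentiableAt 𝓘(ℂ, C2) 𝓘(ℂ, C2) (T.h a) x := (T.h_hol a x hx).1.md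
  have h5 : MDifferentiableAt 𝓘(ℂ, C2) 𝓘(ℂ) T.ρ (T.h a x) := (T.ρ_hol _).md
  rw [h3.mfderiv_eq, mfderiv_comp x h5 h4, h2, h]
  exact ContinuousLinearMap.zero_comp _

/-! ### the surface `X_b` -/

section

variable {X : All.K3} {π : X.X → sphere.C} 

attribute [local instance] manifoldRS manifoldK3 t2RS

/-- the surface `X_b` -/
noncomputable def Xb (D : CutData X.volForm π) (hπ : MDifferentiable 𝓘(ℂ, C2) 𝓘(ℂ) π) (b : ℂ) :
    All.K3 := xb D hπ b

variable (D : CutData X.volForm π) (hπ : MDifferentiable 𝓘(ℂ, C2) 𝓘(ℂ) π) (b : ℂ)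

/-- the identity map `X → X_b` -/
noncomputable def ib : X.X ≃ₜ (Xb D hπ b).X := (D.tw hπ b).homeo

/-- the twist from `X` to `X_b` -/
noncomputable def twb : All.Twist X (Xb D hπ b) := xbTwist D hπ b

theorem contMDiff_ib : ContMDiff 𝓘(ℝ, FL.C2) 𝓘(ℝ, FL.C2) ∞ (ib D hπ b) := by
  refine contMDiff_of_charts (ib D hπ b).continuous fun x => ?_
  set T := D.tw hπ b
  set i := T.idx (π x) with hi
  exact T.smooth i x (T.idx_mem (π x)) (chartAt C2 x) (chart_mem_atlas C2 x)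
    (chartAt C2 (T.Ψ i x)) (chart_mem_atlas C2 _) (mem_chart_source C2 x) (mem_chart_source C2 _)

theorem contMDiff_ib_symm : ContMDiff 𝓘(ℝ, FL.C2) 𝓘(ℝ, FL.C2) ∞ (ib D hπ b).symm := by
  refine contMDiff_of_charts (ib D hπ b).symm.continuous fun y => ?_
  set T := D.tw hπ b with hT
  set y' : X.X := (ib D hπ b).symm y with hy'
  set i := T.idx (π y') with hi
  set x : X.X := T.Ψ i y' with hx
  have hb : π y' ∈ T.O i := T.idx_mem (π y')
  have hpx : π x = π y' := T.base i y' hb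
  have hinv : T.Ψ' i x = y' := T.left_inv i y' hb
  exact T.smooth' i x (by rw [hpx]; exact hb) (chartAt C2 x) (chart_mem_atlas C2 x)
    (chartAt C2 y') (chart_mem_atlas C2 _) (mem_chart_source C2 x)
    (by rw [hinv]; exact mem_chart_source C2 _)

theorem hol_ib {x : X.X} (hx : π x ∉ D.core) : All.Hol (ib D hπ b) x :=
  (D.tw hπ b).hol_to hπ.continuous (a := false) hx

theorem hol_ib_symm {y : (Xb D hπ b).X} (hy : π ((ib D hπ b).symm y) ∉ D.core) :
    All.Hol (ib D hπ b).symm y :=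
  (D.tw hπ b).hol_from hπ.continuous (a := false) hy

theorem twb_h {x : X.X} (hx : π x ∉ D.core) :
    ∃ a, (twb D hπ b).π x ∈ (twb D hπ b).O a ∧ (twb D hπ b).h a x = ib D hπ b x := by
  have key : ∃ σ : Bool, π x ∉ D.slit σ := by
    by_cases h : π x ∈ D.disc
    · have h1 : D.r < ‖D.t (π x) - D.c₀‖ := by
        have := mt (D.mem_core_iff h.1).2 hx
        rw [dist_eq_norm] at this
        exact not_le.1 this
      have h0 : D.t (π x) - D.c₀ ≠ 0 := by
        intro h2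
        rw [h2, norm_zero] at h1
        exact absurd h1 (not_lt.2 D.hr.le)
      by_contra hcon
      push Not at hcon
      have k1 := ((D.mem_slit_iff h).1 (hcon true)).resolve_left (not_le.2 h1)
      have k2 := ((D.mem_slit_iff h).1 (hcon false)).resolve_left (not_le.2 h1)
      simp only [CutData.sg, cond_true, cond_false, one_mul, neg_mul, Complex.mem_slitPlane_iff,
        not_or, not_lt, not_not, Complex.neg_re, Complex.neg_im, neg_eq_zero,
        Left.neg_nonpos_iff] at k1 k2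
      exact h0 (Complex.ext (le_antisymm k1.1 k2.1) k1.2)
    · obtain ⟨a, ha⟩ := D.cover3 (π x)
      rcases a with _ | σ
      · exact absurd ha h
      · exact ⟨σ, ha⟩
  obtain ⟨σ, hσ⟩ := key
  exact ⟨some σ, hσ, rfl⟩

/-- the fibration of `X_b` -/
noncomputable def rhob : (Xb D hπ b).X → P1 := fun y => π ((ib D hπ b).symm y)

theorem rhob_hol (y : (Xb D hπ b).X) : All.HolC (C := sphere.C) (rhob D hπ b) y :=
  (twb D hπ b).ρ_hol y

theorem rhob_noncrit (hreg : ∀ x, π x ∈ D.disc → ¬ All.Critical π x) {y : (Xb D hπ b).X}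
    (hy : rhob D hπ b y ∈ D.core) : ¬ All.Critical (C := sphere.C) (rhob D hπ b) y := by
  intro h
  have hy' : (twb D hπ b).ρ y ∈ (twb D hπ b).O none := D.core_sub_disc hy
  have h1 := critical_of_twist (twb D hπ b) (a := none) hy' h
  have h2 : (twb D hπ b).π ((twb D hπ b).g none y) ∈ D.disc := by
    rw [((twb D hπ b).g_hol none y hy').2.1]
    exact hy'
  exact hreg _ h2 h1

/-- the record `Tw` from its lattice half -/
noncomputable def mkTw {G : H362.Geo X} {e : G.T.H}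
    (hreg : ∀ x, π x ∈ D.disc → ¬ All.Critical π x) (G' : H362.Geo (Xb D hπ b))
    (τ : G.T.H ≃+ G'.T.H) (isom : ∀ x y, G'.T.B (τ x) (τ y) = G.T.B x y)
    (per : ∀ x, G'.σ (τ x) = G.σ x + b * (G.T.B x e : ℤ))
    (cl_eq : ∀ N : X.X → ℝ, H757.IsNormFn FL.C2 N →
      (∃ V, IsOpen V ∧ π ⁻¹' D.core ⊆ V ∧ ∀ x ∈ V, N x = 1) →
      G'.T.cl (fun y => N ((ib D hπ b).symm y)) = τ (G.T.cl N)) :
    H362.Tw G e π D.core b where
  Y := Xb D hπ b
  ι := ib D hπ b
  smooth := contMDiff_ib D hπ b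
  smooth_symm := contMDiff_ib_symm D hπ b
  hol _ hx := md_fl_of_hol (hol_ib D hπ b hx)
  hol_symm x hx := md_fl_of_hol (hol_ib_symm D hπ b (y := ib D hπ b x) hx)
  ρ := rhob D hπ b
  ρ_ι _ := rfl
  ρ_hol := rhob_hol D hπ b
  noncrit _ hy := rhob_noncrit D hπ b hreg hy
  tw := twb D hπ b
  tw_h _ hx := twb_h D hπ b hx
  tw_ρ _ _ h := h
  tw_crit _ h := h
  G' := G'
  τ := τ
  isom := isom
  per := per
  cl_eq := cl_eq

end

instance : Infinite P1 := by
  refine Infinite.of_injective P1.co fun a b h => ?_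
  exact P1.co_injective h

/-- discs of regular values away from finitely many points -/
theorem exists_cut {X : All.K3} {π : X.X → sphere.C} (hπ : ∀ x, All.HolC π x) {A : Set P1}
    (hA : A.Finite) : ∃ D : CutData X.volForm π, (∀ x, π x ∈ D.disc → ¬ All.Critical π x) ∧
      Disjoint D.disc A ∧ IsClosed D.core := by
  have h1 : IsOpen (Aᶜ : Set sphere.C) := hA.isClosed.isOpen_compl
  have h2 : (Aᶜ : Set sphere.C).Nonempty := hA.infinite_compl.nonempty
  have i0 : IsManifold 𝓘(ℂ) ω sphere.C := sphere.manifold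
  have i2 : T2Space sphere.C := sphere.t2
  obtain ⟨c, -, h3⟩ := H436.exists_regular_disc hπ h1 h2
  obtain ⟨r, hr, hb, h4⟩ := h3 (chartAt ℂ c) (chart_mem_atlas ℂ c) (mem_chart_source ℂ c)
  have i3 : IsManifold 𝓘(ℂ) 1 sphere.C := IsManifold.of_le (n := ω) le_top
  have i4 : IsManifold 𝓘(ℂ, C2) 1 X.X := IsManifold.of_le (n := ω) le_top
  have hπ' : MDifferentiable 𝓘(ℂ, C2) 𝓘(ℂ) π := fun x => (hπ x).md
  obtain ⟨D, hDt, hDc, hDr⟩ := exists_cutData X.volForm hπ' (chart_mem_atlas ℂ c)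
    (c₀ := chartAt ℂ c c) (r := r / 2) (half_pos hr) (by rwa [mul_div_cancel₀ _ two_ne_zero])
  have h5 : ∀ p ∈ D.disc, p ∈ Aᶜ ∧ ∀ x, π x = p → ¬ All.Critical π x := by
    rintro p ⟨hp, hp'⟩
    rw [hDt] at hp
    rw [mem_preimage, hDt, hDc, hDr, mul_div_cancel₀ _ two_ne_zero] at hp'
    have h6 := h4 _ (Metric.ball_subset_closedBall hp')
    rwa [(chartAt ℂ c).left_inv hp] at h6
  refine ⟨D, fun x hx => (h5 _ hx).2 x rfl, ?_, D.isClosed_core⟩
  exact Set.disjoint_left.2 fun p hp => (h5 p hp).1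

end Vale.Agent.P290.H610
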